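import Vale.Agent.P062.AFinal

/-! Maker wins the weak achievement game for Snaky on the empty board `ℤ × ℤ`, without handicap,
within 18 moves, all of them inside a fixed 17 by 17 square. -/

namespace Vale.Agent.Results.P062.SnakyWins

open Vale.Agent.P062

theorem result :
    ∃ σ : List (ℤ × ℤ) → ℤ × ℤ, ∀ β : ℕ → ℤ × ℤ, (∀ j < 18, BreakerLegal σ β j) →
      ∃ n ≤ 18,
        (∀ i < n, MakerLegal σ β i ∧
          0 ≤ (makerMove σ β i).1 ∧ (makerMove σ β i).1 < 17 ∧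
          0 ≤ (makerMove σ β i).2 ∧ (makerMove σ β i).2 < 17) ∧
        ∃ T : Set (ℤ × ℤ), IsCopy T ∧ ∀ p ∈ T, ∃ i < n, makerMove σ β i = p := by
  obtain ⟨σ, hσ⟩ := Awin.strat
  refine ⟨σ, fun β hβ => ?_⟩
  obtain ⟨n, hn, h1, T, hT, h2⟩ := hσ β (fun j hj => ⟨id, id, hβ j hj⟩)
  exact ⟨n, hn, fun i hi => ⟨(h1 i hi).2.2.2, (h1 i hi).2.2.1⟩, T, hT,
    fun p hp => (h2 p hp).resolve_left id⟩

end Vale.Agent.Results.P062.SnakyWins
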